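import Vale.Agent.P356.Main

namespace Vale.Agent.Results.P356.Capacity

open Vale.Agent.P356

open Classical in
theorem result (q R : ℕ) (hq : 2 ≤ q) : ∃ K : ℝ, 0 < K ∧ ∀ (J Δ : ℝ), 0 < J → 0 < Δ →
    ∀ (L : ℕ) (h : Finset (Site L) → Matrix (Conf L q) (Conf L q) ℂ) (Ω : Conf L q → ℂ),
    Admissible R J h → Gapped (ham R h) Δ Ω → ∀ A : Finset (Site L),
      ∑ i, ev A Ω i * (-Real.log (ev A Ω i) - ent A Ω) ^ 2 ≤ K * (J / Δ) * bdry A ∧
      (∀ t : ℝ,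
        ∑ i ∈ Finset.univ.filter (fun i => t ≤ |-Real.log (ev A Ω i) - ent A Ω|), ev A Ω i ≤
          15 * Real.exp (-(t / √(K * (1 + J / Δ * bdry A))))) ∧
      ∀ (I : Finset ({x // x ∈ A} → Fin q)) (δ : ℝ), 0 < δ → δ ≤ ∑ i ∈ I, ev A Ω i →
        ent A Ω ≤ Real.log (2 * I.card / δ) +
          √(K * (1 + J / Δ * bdry A)) * Real.log (30 / δ) :=
  main q R hq

end Vale.Agent.Results.P356.Capacity
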